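import Vale.Agent.P032.Main

theorem Vale.Agent.Results.P032.A_six.result :
    ∀ (k : ℕ) (c : EuclideanSpace ℝ (Fin 2) → Fin k),
      (∀ x y : EuclideanSpace ℝ (Fin 2), ‖x - y‖ = 1 → c x ≠ c y) → 6 ≤ k :=
  Vale.Agent.P032.six_le
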